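import Vale.Agent.P235.R2.H483.Lev

set_option linter.all false

/-! Existence of the sequence of largest slopes. -/

namespace Vale.Agent.P235.R2.H483

open Set Vale.Agent.P235.TL

variable {k : ℕ} {D : ℝ}

theorem Lv.compact {l : List ℝ} : Ok k D l → ∀ {Y : Type} [Finite Y] [Nonempty Y]
    {dY : Y → Y → ℝ}, PMet dY → ∀ {T : ℝ}, (∀ x y, dY x y ≤ 2 * T) → (∃ x y, dY x y = 2 * T) →
    2 * l.length + Nat.card Y + 2 ≤ k + 1 → IsCompact {r | Lv k D l dY r} := by
  induction l with
  | nil => intro _ Y _ _ dY _ T _ _ _; exact KK.compact dY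
  | cons a l ih =>
    intro hl Y _ _ dY hY T hT hT' hc
    simp only [List.length_cons] at hc
    have hjn := jn_pmet hY hT hT
    have hJ1 := jn_jc hY hT hT
    have h1 := ih hl.1 hjn (T := T) (fun x y => by
        have := hJ1.le x y
        unfold jn; linarith)
      ⟨.inl false, .inl true, by simp [jn, jf]; ring⟩ (by
        rw [Nat.card_sum, Nat.card_eq_fintype_card, Fintype.card_bool]
        omega)
    have hcl : IsClosed {r' : Bool ⊕ Y → Bool ⊕ Y → ℝ |
        r' (.inl false) (.inl true) = a * (T + T)} :=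
      isClosed_eq ((continuous_apply (Sum.inl true)).comp (continuous_apply (Sum.inl false)))
        continuous_const
    have hcont : Continuous (fun (r' : Bool ⊕ Y → Bool ⊕ Y → ℝ) => fun (x y : Y) =>
        r' (.inr x) (.inr y)) := by
      refine continuous_pi fun a => continuous_pi fun b => ?_
      exact (continuous_apply (Sum.inr b)).comp (continuous_apply (Sum.inr a))
    have e : {r | Lv k D (a :: l) dY r} =
        (fun (r' : Bool ⊕ Y → Bool ⊕ Y → ℝ) => fun (x y : Y) => r' (.inr x) (.inr y)) ''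
          ({r' | Lv k D l (jn T T dY) r'} ∩ {r' | r' (.inl false) (.inl true) = a * (T + T)}) := by
      ext r
      constructor
      · intro h
        obtain ⟨r', h2, h3, h4⟩ := Lv.shrink hl.2.1 hY hT hT' (by omega) h
        exact ⟨r', ⟨h2, h3⟩, by funext x y; exact h4 x y⟩
      · rintro ⟨r', ⟨h2, h3⟩, rfl⟩
        exact ⟨T, T, hT, hT, r', h2, h3, fun x y => rfl⟩
    rw [e]
    exact (h1.inter_right hcl).image hcont

theorem pr_pmet {t : ℝ} (ht : 0 ≤ t) : PMet (pr t) := by
  refine ⟨fun x => if_pos rfl, fun x y => ?_, fun x y z => ?_⟩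
  · unfold pr; rcases x <;> rcases y <;> simp
  · unfold pr; rcases x <;> rcases y <;> rcases z <;> simp <;> linarith

theorem pr_ft (t : ℝ) : pr t false true = t := by simp [pr]

theorem pr_le {t : ℝ} (ht : 0 ≤ t) (x y : Bool) : pr t x y ≤ t := by
  unfold pr; split_ifs <;> linarith

theorem Lv.nonempty (H : Hyp k D) (hD : 0 < D) {l : List ℝ} (hl : Ok k D l)
    (hc : 2 * l.length + 2 ≤ k + 1) : ∃ r, Lv k D l (pr 1) r := by
  cases l with
  | nil =>
    obtain ⟨r, hr⟩ := KK.nonempty H hD (A := Bool) (by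
      rw [Nat.card_eq_fintype_card, Fintype.card_bool]; simpa using hc) (pr_met one_pos)
    exact ⟨r, hr⟩
  | cons a l =>
    obtain ⟨-, -, r₀, h1, h2⟩ := hl
    simp only [List.length_cons] at hc
    have hp : ∀ x y : Bool, pr 1 x y ≤ 2 * (1 / 2) := fun x y => by
      have := pr_le zero_le_one x y
      linarith
    have hJ := jn_jc (pr_pmet zero_le_one) hp hp
    obtain ⟨r, h3, h4⟩ := Lv.extend (k := k) (D := D) (l := l) (A := Bool) (B := Bool ⊕ Bool)
      (dB := jn (1 / 2) (1 / 2) (pr 1)) hJ.pmet Sum.inl (fun R hR x y => by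
        refine (hJ.le x y).trans ?_
        have := hR false true
        simpa [jn, jf] using this) (by
        rw [Nat.card_sum, Nat.card_eq_fintype_card, Fintype.card_bool]
        omega) (ρ := r₀) (by
        have e : (fun a b : Bool => jn (1 / 2) (1 / 2) (pr 1) (Sum.inl a : Bool ⊕ Bool)
            (Sum.inl b)) = pr 1 := by
          funext x y
          unfold jn jf pr
          norm_num
        rw [e]; exact h1)
    refine ⟨fun x y => r (.inr x) (.inr y), 1 / 2, 1 / 2, hp, hp, r, h3, ?_, fun x y => rfl⟩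
    rw [h4, h2]; norm_num

/-- a largest slope exists -/
theorem Ok.next (H : Hyp k D) (hD : 0 < D) {l : List ℝ} (hl : Ok k D l)
    (hc : 2 * l.length + 4 ≤ k + 1) : ∃ a, Ok k D (a :: l) ∧ 1 ≤ D * a ∧ a ≤ 1 := by
  have h1 := Lv.nonempty H hD hl (by omega)
  have h2 := Lv.compact hl (pr_pmet zero_le_one) (T := 1 / 2) (fun x y => by
      have := pr_le zero_le_one x y
      linarith) ⟨false, true, by rw [pr_ft]; norm_num⟩ (by
      rw [Nat.card_eq_fintype_card, Fintype.card_bool]; omega)
  obtain ⟨ρ, hρ, hmax⟩ := h2.exists_isMaxOn h1 (f := fun r : Bool → Bool → ℝ => r false true)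
    ((continuous_apply true).comp (continuous_apply false)).continuousOn
  have h3 := (Lv.adm hρ).low false true
  have h4 := (Lv.adm hρ).up false true
  rw [pr_ft] at h3 h4
  refine ⟨ρ false true, ⟨hl, ?_, ρ, hρ, rfl⟩, h3, h4⟩
  intro Y dY r hm hr a b
  have hadm := Lv.adm hr
  rcases (hm.nonneg a b).lt_or_eq with ht | ht
  · have h5 := Lv.scale (inv_pos.2 ht) (Lv.restrict hr (fun x : Bool => if x then b else a))
    have e : (fun x y : Bool => (dY a b)⁻¹ * dY (if x = true then b else a)
        (if y = true then b else a)) = pr 1 := by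
      funext x y
      rcases x <;> rcases y
      · simp [pr, hm.self]
      · simp [pr, ht.ne']
      · simp [pr, hm.symm b a, ht.ne']
      · simp [pr, hm.self]
    rw [e] at h5
    have h6 := hmax h5
    have h7 : (dY a b)⁻¹ * r a b ≤ ρ false true := by simpa using h6
    rwa [inv_mul_le_iff₀ ht, mul_comm] at h7
  · have h5 := hadm.up a b
    rw [← ht] at h5 ⊢
    linarith

end Vale.Agent.P235.R2.H483
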