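import Vale.Agent.P235.R2.H483.Exi

set_option linter.all false

/-! The recursion: the slope of a level is at least the sum of the slopes of the next two levels. -/

namespace Vale.Agent.P235.R2.H483

open Set Vale.Agent.P235.TL

variable {k : ℕ} {D : ℝ}

theorem l1_list {V : Type} {R : V → V → ℝ} (hR : IsL1 R) (L : List (ℝ × V × V))
    (h : ∀ c : V → Bool, 0 ≤ (L.map fun t => t.1 * ind c t.2.1 t.2.2).sum) :
    0 ≤ (L.map fun t => t.1 * R t.2.1 t.2.2).sum := by
  obtain ⟨ι, _, w, c, hw, hF⟩ := hR
  have e : (L.map fun t => t.1 * R t.2.1 t.2.2).sum =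
      ∑ j, w j * (L.map fun t => t.1 * ind (c j) t.2.1 t.2.2).sum := by
    clear h
    induction L with
    | nil => simp
    | cons t L ih =>
      simp only [List.map_cons, List.sum_cons, mul_add]
      rw [ih, Finset.sum_add_distrib, hF, Finset.mul_sum]
      congr 1
      refine Finset.sum_congr rfl fun j _ => ?_
      unfold ind
      ring
  rw [e]
  exact Finset.sum_nonneg fun j _ => mul_nonneg (hw j) (h _)

def bi (a b : Bool) : ℤ := if a = b then 0 else 1

theorem cut7 : ∀ a b p q r s o : Bool, 0 ≤ -6 * bi a b +
    2 * (bi a p + bi p b + bi a q + bi q b + bi a r + bi r b + bi a s + bi s b) +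
    4 * (bi p o + bi q o + bi r o + bi s o) -
    2 * (bi p r + bi p s + bi q r + bi q s) - (bi p r + bi q s) - (bi p q + bi r s) := by
  decide

/-- `±1` -/
def sg (b : Bool) : ℝ := if b then 1 else -1

/-- corners of a rectangle -/
def gq (s : ℝ) (q : Bool × Bool) : ℝ × ℝ := (sg q.1, s * sg q.2)

theorem pc_jc {Y : Type} (g : Y → ℝ × ℝ) {S m p : ℝ} (h1 : ∀ y, |(g y).1| ≤ 1)
    (h2 : ∀ y, |(g y).2| ≤ S) (hS : 1 ≤ S) (hm : S + 1 ≤ m) (hp : S + 1 ≤ p) :
    JC m p (fun y => (g y).1) (fun x y => dist (g x) (g y)) := by
  have hd : ∀ x y, dist (g x) (g y) ≤ 2 * S := by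
    intro x y
    have a1 := abs_le.1 (h1 x)
    have a2 := abs_le.1 (h1 y)
    have a3 := abs_le.1 (h2 x)
    have a4 := abs_le.1 (h2 y)
    rw [Prod.dist_eq, max_le_iff, Real.dist_eq, Real.dist_eq, abs_le, abs_le]
    refine ⟨⟨?_, ?_⟩, ⟨?_, ?_⟩⟩ <;> linarith
  refine ⟨PMet.of_dist g, fun x y => ?_, fun x y => ?_, fun x y => ?_, by linarith⟩
  · rw [Prod.dist_eq]
    refine le_trans ?_ (le_max_left _ _)
    rw [Real.dist_eq]
    exact le_abs_self _
  · have a1 := abs_le.1 (h1 x)
    have a2 := abs_le.1 (h1 y)
    have := hd x y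
    linarith
  · have a1 := abs_le.1 (h1 x)
    have a2 := abs_le.1 (h1 y)
    have := hd x y
    linarith

/-- a rectangle of height `2 s` in an exact pair, with almost extremal vertical sides -/
def Conf (k : ℕ) (D : ℝ) (l : List ℝ) (A B C s Δ : ℝ) : Prop :=
  ∃ m p : ℝ, s + 1 ≤ m ∧ s + 1 ≤ p ∧ ∃ r : Bool ⊕ (Bool × Bool) → Bool ⊕ (Bool × Bool) → ℝ,
    Lv k D (A :: l) (jf m p (fun y => (gq s y).1) (fun x y => dist (gq s x) (gq s y))) r ∧
    r (.inl false) (.inl true) = B * (m + p) ∧
    4 * s * C - Δ ≤ r (.inr (false, false)) (.inr (false, true)) +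
      r (.inr (true, false)) (.inr (true, true))

theorem sg_abs (b : Bool) : |sg b| = 1 := by cases b <;> simp [sg]

theorem gq1 (s : ℝ) (y : Bool × Bool) : |(gq s y).1| ≤ 1 := (sg_abs _).le

theorem gq2 {s : ℝ} (hs : 0 ≤ s) (y : Bool × Bool) : |(gq s y).2| ≤ s := by
  show |s * sg y.2| ≤ s
  rw [abs_mul, sg_abs, mul_one, abs_of_nonneg hs]

theorem conf_half {l : List ℝ} {A B C s Δ : ℝ} (hs : 1 ≤ s) (hc : 2 * l.length + 10 ≤ k + 1)
    (h : Conf k D l A B C (2 * s) Δ) : Conf k D l A B C s (Δ / 2) := by
  obtain ⟨m, p, hm, hp, r, h1, h2, h3⟩ := h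
  let g' : Bool × Option Bool → ℝ × ℝ := fun y => match y with
    | (σ, none) => (sg σ, 0)
    | (σ, some τ) => (sg σ, 2 * s * sg τ)
  let ι : Bool × Bool → Bool × Option Bool := fun y => (y.1, some y.2)
  have g1 : ∀ y, |(g' y).1| ≤ 1 := by
    rintro ⟨σ, _ | τ⟩
    · exact (sg_abs _).le
    · exact (sg_abs _).le
  have g2 : ∀ y, |(g' y).2| ≤ 2 * s := by
    rintro ⟨σ, _ | τ⟩
    · show |(0 : ℝ)| ≤ _
      rw [abs_zero]; linarith
    · show |2 * s * sg τ| ≤ _
      rw [abs_mul, sg_abs, mul_one, abs_of_nonneg (by linarith)]
  have hJ := pc_jc g' g1 g2 (m := m) (p := p) (by linarith) hm hp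
  obtain ⟨r', h4, h5⟩ := Lv.extendJ (l := A :: l) hJ ι (by
    rw [Nat.card_eq_fintype_card, Fintype.card_prod, Fintype.card_option, Fintype.card_bool]
    simp only [List.length_cons]
    omega) h1
  have hL := (Lv.adm h4).l1
  let io : Bool → Bool × Bool → Bool × Option Bool := fun b y =>
    (y.1, if y.2 = b then some b else none)
  have key : ∀ b : Bool, Lv k D (A :: l) (jf m p (fun y => (gq s y).1)
      (fun x y => dist (gq s x) (gq s y)))
      (fun x y => r' (Sum.map id (io b) x) (Sum.map id (io b) y)) := by
    intro b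
    have h6 := Lv.restrict h4 (Sum.map id (io b))
    rw [jf_comap] at h6
    have e0 : ∀ y, g' (io b y) = gq s y + (0, s * sg b) := by
      rintro ⟨σ, τ⟩
      by_cases hτ : τ = b
      · subst hτ
        have : io τ (σ, τ) = (σ, some τ) := by simp [io]
        rw [this]
        show (sg σ, 2 * s * sg τ) = (sg σ + 0, s * sg τ + s * sg τ)
        rw [add_zero]; congr 1; ring
      · have : io b (σ, τ) = (σ, none) := by simp [io, hτ]
        rw [this]
        show (sg σ, (0 : ℝ)) = (sg σ + 0, s * sg τ + s * sg b)
        have : sg τ + sg b = 0 := by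
          cases τ <;> cases b <;> simp [sg] at hτ ⊢
        rw [← mul_add, this, mul_zero, add_zero]
    have e1 : (fun z => (g' (io b z)).1) = fun y => (gq s y).1 := by
      funext y; rw [e0]; show (gq s y).1 + 0 = _; rw [add_zero]
    have e2 : (fun x y => dist (g' (io b x)) (g' (io b y))) =
        fun x y => dist (gq s x) (gq s y) := by
      funext x y; rw [e0, e0, dist_add_right]
    rw [e1, e2] at h6
    exact h6
  have h7 : r' (.inl false) (.inl true) = B * (m + p) := by
    rw [← h2]; exact h5 (.inl false) (.inl true)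
  have h8 : r' (.inr (false, some false)) (.inr (false, some true)) =
      r (.inr (false, false)) (.inr (false, true)) :=
    h5 (.inr (false, false)) (.inr (false, true))
  have h9 : r' (.inr (true, some false)) (.inr (true, some true)) =
      r (.inr (true, false)) (.inr (true, true)) :=
    h5 (.inr (true, false)) (.inr (true, true))
  have t1 := hL.tri (.inr (false, some false)) (.inr (false, none)) (.inr (false, some true))
  have t2 := hL.tri (.inr (true, some false)) (.inr (true, none)) (.inr (true, some true))
  rcases le_total (4 * s * C - Δ / 2) (r' (.inr (false, some false)) (.inr (false, none)) +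
      r' (.inr (true, some false)) (.inr (true, none))) with hle | hle
  · exact ⟨m, p, by linarith, by linarith, _, key false, h7, hle⟩
  · refine ⟨m, p, by linarith, by linarith, _, key true, h7, ?_⟩
    show _ ≤ r' (.inr (false, none)) (.inr (false, some true)) +
      r' (.inr (true, none)) (.inr (true, some true))
    linarith

theorem conf_iter {l : List ℝ} {A B C Δ : ℝ} (hc : 2 * l.length + 10 ≤ k + 1) (n : ℕ)
    (h : Conf k D l A B C (2 ^ n) Δ) : Conf k D l A B C 1 (Δ / 2 ^ n) := by
  induction n generalizing Δ with
  | zero => simpa using h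
  | succ n ih =>
    have h1 : Conf k D l A B C (2 ^ n) (Δ / 2) :=
      conf_half (one_le_pow₀ (by norm_num)) hc (by rwa [pow_succ, mul_comm] at h)
    have h2 := ih h1
    rwa [div_div, ← pow_succ'] at h2

theorem conf_start {l : List ℝ} {A B C : ℝ} (hB : Bd k D (A :: l) B)
    (hC : Bd k D (B :: A :: l) C) (hCr : ∃ r, Lv k D (B :: A :: l) (pr 1) r ∧ r false true = C)
    (hc : 2 * l.length + 8 ≤ k + 1) {R : ℝ} (hR : 1 ≤ R) : Conf k D l A B C R (4 * B) := by
  obtain ⟨r₀, h1, h2⟩ := hCr
  have h3 := Lv.scale (show 0 < 2 * R + 4 by linarith) h1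
  let pos : Bool ⊕ Bool → ℝ := fun x => match x with
    | .inl b => (R + 2) * sg b
    | .inr b => R * sg b
  have hd : ∀ x y, dist (pos x) (pos y) ≤ 2 * R + 4 := by
    have hp : ∀ x, |pos x| ≤ R + 2 := by
      rintro (b | b)
      · show |(R + 2) * sg b| ≤ _
        rw [abs_mul, sg_abs, mul_one, abs_of_nonneg (by linarith)]
      · show |R * sg b| ≤ _
        rw [abs_mul, sg_abs, mul_one, abs_of_nonneg (by linarith)]
        linarith
    intro x y
    have a1 := abs_le.1 (hp x)
    have a2 := abs_le.1 (hp y)
    rw [Real.dist_eq, abs_le]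
    constructor <;> linarith
  have hft : dist (pos (.inl false)) (pos (.inl true)) = 2 * R + 4 := by
    show dist ((R + 2) * sg false) ((R + 2) * sg true) = _
    rw [Real.dist_eq, show (R + 2) * sg false - (R + 2) * sg true = -(2 * R + 4) by
      simp [sg]; ring, abs_neg, abs_of_nonneg (by linarith)]
  obtain ⟨r₁, h4, h5⟩ := Lv.extend (k := k) (D := D) (l := B :: A :: l) (A := Bool)
    (B := Bool ⊕ Bool) (dB := fun x y => dist (pos x) (pos y)) (PMet.of_dist pos) Sum.inl
    (fun Q hQ x y => (hd x y).trans (by rw [← hft]; exact hQ false true)) (by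
      rw [Nat.card_sum, Nat.card_eq_fintype_card, Fintype.card_bool]
      simp only [List.length_cons]
      omega) (ρ := fun x y => (2 * R + 4) * r₀ x y) (by
      have e : (fun a b : Bool => dist (pos (Sum.inl a)) (pos (Sum.inl b))) =
          fun x y => (2 * R + 4) * pr 1 x y := by
        funext x y
        rcases x <;> rcases y
        · simp [pr]
        · rw [hft]; simp [pr]
        · rw [dist_comm, hft]; simp [pr]
        · simp [pr]
      rw [e]; exact h3)
  have hbd := hC (PMet.of_dist pos) h4
  have hL₁ := (Lv.adm h4).l1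
  have b1 : r₁ (.inl false) (.inl true) = (2 * R + 4) * C := by rw [h5, h2]
  have b2 : r₁ (.inl false) (.inr false) ≤ C * 2 := by
    have := hbd (.inl false) (.inr false)
    have e : dist (pos (.inl false)) (pos (.inr false)) = 2 := by
      show dist ((R + 2) * sg false) (R * sg false) = _
      rw [Real.dist_eq, show (R + 2) * sg false - R * sg false = -2 by simp [sg]]
      norm_num
    rwa [e] at this
  have b3 : r₁ (.inr true) (.inl true) ≤ C * 2 := by
    have := hbd (.inr true) (.inl true)
    have e : dist (pos (.inr true)) (pos (.inl true)) = 2 := by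
      show dist (R * sg true) ((R + 2) * sg true) = _
      rw [Real.dist_eq, show R * sg true - (R + 2) * sg true = -2 by simp [sg]]
      norm_num
    rwa [e] at this
  have b4 : 2 * R * C ≤ r₁ (.inr false) (.inr true) := by
    have t1 := hL₁.tri (.inl false) (.inr false) (.inl true)
    have t2 := hL₁.tri (.inr false) (.inr true) (.inl true)
    linarith
  obtain ⟨m, p, h6, h7, r₂, h8, h9, h10⟩ := h4
  have hm : 2 * R + 4 ≤ 2 * m := by rw [← hft]; exact h6 (.inl false) (.inl true)
  have hp : 2 * R + 4 ≤ 2 * p := by rw [← hft]; exact h7 (.inl false) (.inl true)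
  have h11 := Lv.restrict h8 (Sum.map id Sum.inr : Bool ⊕ Bool → Bool ⊕ (Bool ⊕ Bool))
  rw [jn_comap] at h11
  have hJ := pc_jc (gq R) (gq1 R) (gq2 (by linarith)) (m := m - 1) (p := p + 1) hR
    (by linarith) (by linarith)
  let ι : Bool → Bool × Bool := fun b => (true, b)
  have e3 : jn m p (fun x y : Bool => dist (pos (Sum.inr x)) (pos (Sum.inr y))) =
      jf (m - 1) (p + 1) (fun a => (gq R (ι a)).1)
        (fun a b => dist (gq R (ι a)) (gq R (ι b))) := by
    funext x y
    rcases x with s | x <;> rcases y with t | y
    · show (if s = t then 0 else m + p) = (if s = t then 0 else (m - 1) + (p + 1))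
      split_ifs
      · rfl
      · ring
    · show (if s then p - 0 else m + 0) = (if s then (p + 1) - 1 else (m - 1) + 1)
      split_ifs <;> ring
    · show (if t then p - 0 else m + 0) = (if t then (p + 1) - 1 else (m - 1) + 1)
      split_ifs <;> ring
    · show dist (R * sg x) (R * sg y) = dist ((1 : ℝ), R * sg x) (1, R * sg y)
      rw [Prod.dist_eq]
      simp
  rw [e3] at h11
  obtain ⟨r₃, h12, h13⟩ := Lv.extendJ (l := A :: l) hJ ι (by
    rw [Nat.card_eq_fintype_card, Fintype.card_prod, Fintype.card_bool]
    simp only [List.length_cons]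
    omega) h11
  have hL := (Lv.adm h12).l1
  have hbB := hB hJ.pmet h12
  refine ⟨m - 1, p + 1, by linarith, by linarith, r₃, h12, ?_, ?_⟩
  · have := h13 (.inl false) (.inl true)
    rw [show (m - 1) + (p + 1) = m + p by ring, ← h9]
    exact this
  · have c1 : r₃ (.inr (true, false)) (.inr (true, true)) = r₁ (.inr false) (.inr true) := by
      have := h13 (.inr false) (.inr true)
      rw [← h10]
      exact this
    have c2 : ∀ b : Bool, r₃ (.inr (true, b)) (.inr (false, b)) ≤ B * 2 := by
      intro b
      have := hbB (.inr (true, b)) (.inr (false, b))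
      have e : jf (m - 1) (p + 1) (fun y => (gq R y).1) (fun x y => dist (gq R x) (gq R y))
          (.inr (true, b)) (.inr (false, b)) = 2 := by
        show dist ((1 : ℝ), R * sg b) (-1, R * sg b) = 2
        rw [Prod.dist_eq, Real.dist_eq, Real.dist_eq]
        norm_num
      rwa [e] at this
    have t1 := hL.tri (.inr (true, false)) (.inr (false, false)) (.inr (true, true))
    have t2 := hL.tri (.inr (false, false)) (.inr (false, true)) (.inr (true, true))
    have s1 := hL.symm (.inr (false, true)) (.inr (true, true))
    have u1 := c2 false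
    have u2 := c2 true
    linarith

theorem conf_end {l : List ℝ} {A B C Δ : ℝ} (hA : Bd k D l A) (hB : Bd k D (A :: l) B)
    (hc : 2 * l.length + 9 ≤ k + 1) (h : Conf k D l A B C 1 Δ) :
    4 * B + 4 * C - Δ ≤ 4 * A := by
  obtain ⟨m, p, hm, hp, r, h1, h2, h3⟩ := h
  let g' : Option (Bool × Bool) → ℝ × ℝ := fun y => match y with
    | none => (0, 0)
    | some q => gq 1 q
  have g1 : ∀ y, |(g' y).1| ≤ 1 := by
    rintro (_ | q)
    · show |(0 : ℝ)| ≤ 1
      simp
    · exact gq1 1 q
  have g2 : ∀ y, |(g' y).2| ≤ 1 := by
    rintro (_ | q)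
    · show |(0 : ℝ)| ≤ 1
      simp
    · exact gq2 zero_le_one q
  have hJ := pc_jc g' g1 g2 (m := m) (p := p) le_rfl (by linarith) (by linarith)
  obtain ⟨r', h4, h5⟩ := Lv.extendJ (l := A :: l) hJ (some : Bool × Bool → Option (Bool × Bool))
    (by
      rw [Nat.card_eq_fintype_card, Fintype.card_option, Fintype.card_prod, Fintype.card_bool]
      simp only [List.length_cons]
      omega) h1
  have hL' := (Lv.adm h4).l1
  have hb := hB hJ.pmet h4
  -- values
  have x0 : r' (.inl false) (.inl true) = B * (m + p) := by
    rw [← h2]; exact h5 (.inl false) (.inl true)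
  have d0 : ∀ q : Bool × Bool, dist (g' (some q)) (g' none) = 1 := by
    rintro ⟨σ, τ⟩
    show dist ((sg σ, 1 * sg τ) : ℝ × ℝ) (0, 0) = 1
    rw [Prod.dist_eq, Real.dist_eq, Real.dist_eq]
    simp [sg_abs]
  have d1 : ∀ τ τ' : Bool, dist (g' (some (false, τ))) (g' (some (true, τ'))) = 2 := by
    intro τ τ'
    show dist ((sg false, 1 * sg τ) : ℝ × ℝ) (sg true, 1 * sg τ') = 2
    rw [Prod.dist_eq, Real.dist_eq, Real.dist_eq]
    cases τ <;> cases τ' <;> norm_num [sg]
  have y0 : ∀ q : Bool × Bool, r' (.inr (some q)) (.inr none) ≤ B := by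
    intro q
    have := hb (.inr (some q)) (.inr none)
    have e : jf m p (fun y => (g' y).1) (fun x y => dist (g' x) (g' y)) (.inr (some q))
        (.inr none) = 1 := d0 q
    rw [e] at this
    linarith
  have y1 : ∀ τ τ' : Bool, 2 * B ≤ r' (.inr (some (false, τ))) (.inr (some (true, τ'))) := by
    intro τ τ'
    have a1 := hb (.inl false) (.inr (some (false, τ)))
    have a2 := hb (.inr (some (true, τ'))) (.inl true)
    have e1 : jf m p (fun y => (g' y).1) (fun x y => dist (g' x) (g' y)) (.inl false)
        (.inr (some (false, τ))) = m + -1 := rfl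
    have e2 : jf m p (fun y => (g' y).1) (fun x y => dist (g' x) (g' y))
        (.inr (some (true, τ'))) (.inl true) = p - 1 := rfl
    rw [e1] at a1
    rw [e2] at a2
    have t1 := hL'.tri (.inl false) (.inr (some (false, τ))) (.inl true)
    have t2 := hL'.tri (.inr (some (false, τ))) (.inr (some (true, τ'))) (.inl true)
    linarith
  have y2 : 4 * 1 * C - Δ ≤ r' (.inr (some (false, false))) (.inr (some (false, true))) +
      r' (.inr (some (true, false))) (.inr (some (true, true))) := by
    have e1 := h5 (.inr (false, false)) (.inr (false, true))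
    have e2 := h5 (.inr (true, false)) (.inr (true, true))
    simp only [Sum.map_inr] at e1 e2
    rw [e1, e2]
    exact h3
  -- the next level
  have h6 := Lv.restrict h4 (Sum.inr : Option (Bool × Bool) → _)
  have hd2 : ∀ x y, dist (g' x) (g' y) ≤ 2 * 1 := by
    intro x y
    have a1 := abs_le.1 (g1 x)
    have a2 := abs_le.1 (g1 y)
    have a3 := abs_le.1 (g2 x)
    have a4 := abs_le.1 (g2 y)
    rw [Prod.dist_eq, max_le_iff, Real.dist_eq, Real.dist_eq, abs_le, abs_le]
    refine ⟨⟨?_, ?_⟩, ⟨?_, ?_⟩⟩ <;> linarith
  have hY : PMet (fun x y => dist (g' x) (g' y)) := PMet.of_dist g'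
  obtain ⟨r₃, h7, h8, h9⟩ := Lv.shrink hA hY (T := 1) hd2
    ⟨some (false, false), some (true, false), by rw [d1]; norm_num⟩ (by
      rw [Nat.card_eq_fintype_card, Fintype.card_option, Fintype.card_prod, Fintype.card_bool]
      omega) h6
  have hL := (Lv.adm h7).l1
  have hb3 := hA (jn_pmet hY hd2 hd2) h7
  have z : ∀ (s : Bool) (y : Option (Bool × Bool)), r₃ (.inl s) (.inr y) ≤ A := by
    intro s y
    have := hb3 (.inl s) (.inr y)
    have e : jn 1 1 (fun x y => dist (g' x) (g' y)) (.inl s) (.inr y) = 1 := by
      simp [jn, jf]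
    rw [e] at this
    linarith
  have z' : ∀ (s : Bool) (y : Option (Bool × Bool)), r₃ (.inr y) (.inl s) ≤ A := by
    intro s y
    rw [hL.symm]; exact z s y
  have fin := l1_list hL [(-6, .inl false, .inl true),
    (2, .inl false, .inr (some (false, false))), (2, .inr (some (false, false)), .inl true),
    (2, .inl false, .inr (some (false, true))), (2, .inr (some (false, true)), .inl true),
    (2, .inl false, .inr (some (true, false))), (2, .inr (some (true, false)), .inl true),
    (2, .inl false, .inr (some (true, true))), (2, .inr (some (true, true)), .inl true),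
    (4, .inr (some (false, false)), .inr none), (4, .inr (some (false, true)), .inr none),
    (4, .inr (some (true, false)), .inr none), (4, .inr (some (true, true)), .inr none),
    (-3, .inr (some (false, false)), .inr (some (true, false))),
    (-2, .inr (some (false, false)), .inr (some (true, true))),
    (-2, .inr (some (false, true)), .inr (some (true, false))),
    (-3, .inr (some (false, true)), .inr (some (true, true))),
    (-1, .inr (some (false, false)), .inr (some (false, true))),
    (-1, .inr (some (true, false)), .inr (some (true, true)))] (by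
      intro c
      have hc := cut7 (c (.inl false)) (c (.inl true)) (c (.inr (some (false, false))))
        (c (.inr (some (false, true)))) (c (.inr (some (true, false))))
        (c (.inr (some (true, true)))) (c (.inr none))
      have hi : ∀ x y, ind c x y = ((bi (c x) (c y) : ℤ) : ℝ) := by
        intro x y
        unfold ind bi
        split_ifs <;> simp
      have hc' : (0 : ℝ) ≤ ((-6 * bi (c (.inl false)) (c (.inl true)) +
        2 * (bi (c (.inl false)) (c (.inr (some (false, false)))) +
          bi (c (.inr (some (false, false)))) (c (.inl true)) +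
          bi (c (.inl false)) (c (.inr (some (false, true)))) +
          bi (c (.inr (some (false, true)))) (c (.inl true)) +
          bi (c (.inl false)) (c (.inr (some (true, false)))) +
          bi (c (.inr (some (true, false)))) (c (.inl true)) +
          bi (c (.inl false)) (c (.inr (some (true, true)))) +
          bi (c (.inr (some (true, true)))) (c (.inl true))) +
        4 * (bi (c (.inr (some (false, false)))) (c (.inr none)) +
          bi (c (.inr (some (false, true)))) (c (.inr none)) +
          bi (c (.inr (some (true, false)))) (c (.inr none)) +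
          bi (c (.inr (some (true, true)))) (c (.inr none))) -
        2 * (bi (c (.inr (some (false, false)))) (c (.inr (some (true, false)))) +
          bi (c (.inr (some (false, false)))) (c (.inr (some (true, true)))) +
          bi (c (.inr (some (false, true)))) (c (.inr (some (true, false)))) +
          bi (c (.inr (some (false, true)))) (c (.inr (some (true, true))))) -
        (bi (c (.inr (some (false, false)))) (c (.inr (some (true, false)))) +
          bi (c (.inr (some (false, true)))) (c (.inr (some (true, true))))) -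
        (bi (c (.inr (some (false, false)))) (c (.inr (some (false, true)))) +
          bi (c (.inr (some (true, false)))) (c (.inr (some (true, true))))) : ℤ) : ℝ) := by
        exact_mod_cast hc
      simp only [List.map_cons, List.map_nil, List.sum_cons, List.sum_nil, hi]
      push_cast at hc'
      linarith)
  simp only [List.map_cons, List.map_nil, List.sum_cons, List.sum_nil] at fin
  have k1 := z false (some (false, false))
  have k2 := z false (some (false, true))
  have k3 := z false (some (true, false))
  have k4 := z false (some (true, true))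
  have k5 := z' true (some (false, false))
  have k6 := z' true (some (false, true))
  have k7 := z' true (some (true, false))
  have k8 := z' true (some (true, true))
  simp only [h9, h8] at fin
  have m1 := y0 (false, false)
  have m2 := y0 (false, true)
  have m3 := y0 (true, false)
  have m4 := y0 (true, true)
  have n1 := y1 false false
  have n2 := y1 false true
  have n3 := y1 true false
  have n4 := y1 true true
  linarith

/-- the recursion -/
theorem Ok.fib {l : List ℝ} {A B C : ℝ} (h : Ok k D (C :: B :: A :: l))
    (hc : 2 * l.length + 10 ≤ k + 1) : B + C ≤ A := by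
  obtain ⟨⟨⟨-, hA, -⟩, hB, -⟩, hC, hCr⟩ := h
  have key : ∀ n : ℕ, 4 * B + 4 * C - 4 * B / 2 ^ n ≤ 4 * A := by
    intro n
    have h1 := conf_start hB hC hCr (by omega) (R := 2 ^ n) (one_le_pow₀ (by norm_num))
    exact conf_end hA hB (by omega) (conf_iter hc n h1)
  by_contra hlt
  push Not at hlt
  have h1 : Filter.Tendsto (fun n : ℕ => 4 * B + 4 * C - 4 * B / 2 ^ n) Filter.atTop
      (nhds (4 * B + 4 * C - 0)) := by
    refine Filter.Tendsto.sub tendsto_const_nhds ?_
    have h2 : Filter.Tendsto (fun n : ℕ => (4 * B) * (1 / 2 : ℝ) ^ n) Filter.atTop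
        (nhds (4 * B * 0)) :=
      (tendsto_pow_atTop_nhds_zero_of_lt_one (by norm_num) (by norm_num)).const_mul _
    rw [mul_zero] at h2
    refine h2.congr fun n => ?_
    rw [one_div, inv_pow, div_eq_mul_inv]
  have h3 := le_of_tendsto' h1 key
  linarith

end Vale.Agent.P235.R2.H483
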