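import Vale.Agent.P235.R2.H483.Fibo

set_option linter.all false

/-! The exponential lower bound. -/

namespace Vale.Agent.P235.R2.H483

open Set Vale.Agent.P235.TL

variable {k : ℕ} {D : ℝ}

theorem Ok.run (H : Hyp k D) (hD : 0 < D) (n : ℕ) : ∀ {l : List ℝ} {a b : ℝ},
    Ok k D (b :: a :: l) → 1 ≤ D * a → 1 ≤ D * b → 2 * (l.length + 2 + n) + 4 ≤ k + 1 →
    (Nat.fib (n + 1) : ℝ) ≤ D * b ∧ (Nat.fib (n + 2) : ℝ) ≤ D * a := by
  induction n with
  | zero =>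
    intro l a b _ ha hb _
    simp only [Nat.fib_one, Nat.fib_two, zero_add, Nat.cast_one]
    exact ⟨hb, ha⟩
  | succ n ih =>
    intro l a b h ha hb hc
    obtain ⟨c, h1, h2, h3⟩ := Ok.next H hD h (by simp only [List.length_cons]; omega)
    have h4 := ih h1 hb h2 (by simp only [List.length_cons]; omega)
    have h5 := Ok.fib h1 (by omega)
    refine ⟨h4.2, ?_⟩
    rw [show n + 1 + 2 = (n + 1) + 2 by rfl, Nat.fib_add_two]
    push_cast
    have h6 := mul_le_mul_of_nonneg_left h5 hD.le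
    have h7 := h4.1
    have h8 := h4.2
    linarith

/-- the constant for treewidth at most `2 n + 3` is at least the `n`-th Fibonacci number -/
theorem fib_le (H : Hyp k D) (hD : 0 < D) {n : ℕ} (hk : 2 * n + 3 ≤ k) : (Nat.fib n : ℝ) ≤ D := by
  obtain ⟨a, h1, h2, h3⟩ := Ok.next H hD (l := []) trivial (by simp; omega)
  have hD1 : 1 ≤ D := by nlinarith
  rcases n with _ | _ | n
  · simp; linarith
  · simpa using hD1
  · obtain ⟨b, h4, h5, h6⟩ := Ok.next H hD h1 (by simp; omega)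
    have h7 := (Ok.run H hD n h4 h2 h5 (by simp only [List.length_nil]; omega)).2
    nlinarith

theorem fib_lower {n k : ℕ} {D : ℝ} (hD : 0 < D) (hDn : D < Nat.fib n) (hk : 2 * n + 3 ≤ k) :
    ¬ Hyp k D := fun H => absurd (fib_le H hD hk) (not_le.2 hDn)

theorem fib_exp (n : ℕ) (hn : 1 ≤ n) : (5 / 4 : ℝ) ^ (2 * n + 4) / 7 ≤ Nat.fib n := by
  have key : ∀ m : ℕ, (5 / 4 : ℝ) ^ (2 * (m + 1) + 4) / 7 ≤ Nat.fib (m + 1) ∧
      (5 / 4 : ℝ) ^ (2 * (m + 2) + 4) / 7 ≤ Nat.fib (m + 2) := by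
    intro m
    induction m with
    | zero => norm_num
    | succ m ih =>
      refine ⟨ih.2, ?_⟩
      rw [show m + 1 + 2 = (m + 1) + 2 by rfl, Nat.fib_add_two]
      push_cast
      have e1 : (5 / 4 : ℝ) ^ (2 * (m + 1 + 2) + 4) =
          (5 / 4 : ℝ) ^ (2 * (m + 1) + 4) * (5 / 4) ^ 4 := by rw [← pow_add]; congr 1
      have e2 : (5 / 4 : ℝ) ^ (2 * (m + 2) + 4) =
          (5 / 4 : ℝ) ^ (2 * (m + 1) + 4) * (5 / 4) ^ 2 := by rw [← pow_add]; congr 1
      have h1 := ih.1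
      have h2 := ih.2
      rw [e2] at h2
      rw [e1]
      have h3 : (0 : ℝ) < (5 / 4 : ℝ) ^ (2 * (m + 1) + 4) := by positivity
      have h4 : (Nat.fib (m + 1 + 1) : ℝ) = Nat.fib (m + 2) := rfl
      rw [h4]
      nlinarith
  obtain ⟨m, rfl⟩ : ∃ m, n = m + 1 := ⟨n - 1, by omega⟩
  exact (key m).1

theorem exp_lower {k : ℕ} {D : ℝ} (hD : 1 ≤ D) (hk : D < (5 / 4) ^ k / 7) : ¬ Hyp k D := by
  have h5 : 5 ≤ k := by
    by_contra h
    have h1 : (5 / 4 : ℝ) ^ k ≤ (5 / 4) ^ 4 := pow_le_pow_right₀ (by norm_num) (by omega)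
    have h2 : (5 / 4 : ℝ) ^ 4 / 7 < 1 := by norm_num
    linarith [div_le_div_of_nonneg_right h1 (show (0 : ℝ) ≤ 7 by norm_num)]
  refine fib_lower (n := (k - 3) / 2) (by linarith) (hk.trans_le ?_) (by omega)
  refine le_trans ?_ (fib_exp ((k - 3) / 2) (by omega))
  refine div_le_div_of_nonneg_right ?_ (by norm_num)
  exact pow_le_pow_right₀ (by norm_num) (by omega)

end Vale.Agent.P235.R2.H483
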