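import Vale.Agent.P235.R2.H483.Pse

set_option linter.all false

/-! Levels: laws over nested exact pairs. -/

namespace Vale.Agent.P235.R2.H483

open Set Vale.Agent.P235.TL

/-- `r` is a law on `(Y, dY)` which extends to a law with nested exact pairs of points; the slopes
are those in the list, the innermost pair (smallest distances) comes first. -/
def Lv (k : ℕ) (D : ℝ) : List ℝ → ∀ {Y : Type}, (Y → Y → ℝ) → (Y → Y → ℝ) → Prop
  | [], _, dY, r => r ∈ KK k D dY
  | a :: l, Y, dY, r => ∃ m p : ℝ, (∀ x y, dY x y ≤ 2 * m) ∧ (∀ x y, dY x y ≤ 2 * p) ∧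
      ∃ r' : Bool ⊕ Y → Bool ⊕ Y → ℝ, Lv k D l (jn m p dY) r' ∧
        r' (.inl false) (.inl true) = a * (m + p) ∧ ∀ x y, r' (.inr x) (.inr y) = r x y

variable {k : ℕ} {D : ℝ}

theorem jn_comap {Y Z : Type} (m p : ℝ) (dY : Y → Y → ℝ) (ι : Z → Y) :
    (fun x y => jn m p dY (Sum.map id ι x) (Sum.map id ι y)) =
      jn m p (fun x y => dY (ι x) (ι y)) :=
  jf_comap m p _ dY ι

theorem Lv.restrict {l : List ℝ} : ∀ {Y Z : Type} {dY r : Y → Y → ℝ}, Lv k D l dY r →
    ∀ ι : Z → Y, Lv k D l (fun x y => dY (ι x) (ι y)) (fun x y => r (ι x) (ι y)) := by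
  induction l with
  | nil => intro Y Z dY r h ι; exact KK.restrict h ι
  | cons a l ih =>
    rintro Y Z dY r ⟨m, p, h1, h2, r', h3, h4, h5⟩ ι
    refine ⟨m, p, fun x y => h1 _ _, fun x y => h2 _ _,
      fun x y => r' (Sum.map id ι x) (Sum.map id ι y), ?_, ?_, ?_⟩
    · have := ih h3 (Sum.map id ι)
      rwa [jn_comap] at this
    · exact h4
    · exact fun x y => h5 _ _

theorem Lv.adm {l : List ℝ} : ∀ {Y : Type} {dY r : Y → Y → ℝ}, Lv k D l dY r →
    TL.Adm D dY r := by
  induction l with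
  | nil => intro Y dY r h; exact KK.adm h
  | cons a l ih =>
    rintro Y dY r ⟨m, p, h1, h2, r', h3, h4, h5⟩
    have h6 := (ih h3).comap (f := Sum.inr) (e := dY) (fun x y => rfl)
    have h7 : (fun x y => r' (.inr x) (.inr y)) = r := by
      funext x y; exact h5 x y
    rwa [h7] at h6

theorem Lv.scale {l : List ℝ} {c : ℝ} (hc : 0 < c) : ∀ {Y : Type} {dY r : Y → Y → ℝ},
    Lv k D l dY r → Lv k D l (fun x y => c * dY x y) (fun x y => c * r x y) := by
  induction l with
  | nil => intro Y dY r h; exact KK.scale h hc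
  | cons a l ih =>
    rintro Y dY r ⟨m, p, h1, h2, r', h3, h4, h5⟩
    refine ⟨c * m, c * p, fun x y => ?_, fun x y => ?_, fun x y => c * r' x y, ?_, ?_, ?_⟩
    · have := mul_le_mul_of_nonneg_left (h1 x y) hc.le
      show c * dY x y ≤ _
      linarith
    · have := mul_le_mul_of_nonneg_left (h2 x y) hc.le
      show c * dY x y ≤ _
      linarith
    · have h6 := ih h3
      have h7 : (fun x y => c * jn m p dY x y) = jn (c * m) (c * p) fun x y => c * dY x y := by
        unfold jn
        rw [jf_scale]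
        simp only [mul_zero]
      rwa [h7] at h6
    · show c * r' (.inl false) (.inl true) = _
      rw [h4]; ring
    · intro x y
      show c * r' (.inr x) (.inr y) = _
      rw [h5]

theorem jn_jc {Y : Type} [Nonempty Y] {dY : Y → Y → ℝ} (h : PMet dY) {m p : ℝ}
    (h1 : ∀ x y, dY x y ≤ 2 * m) (h2 : ∀ x y, dY x y ≤ 2 * p) : JC m p (fun _ => 0) dY := by
  obtain ⟨y⟩ := ‹Nonempty Y›
  have e1 := h1 y y
  have e2 := h2 y y
  rw [h.self] at e1 e2
  refine ⟨h, fun x y => ?_, fun x y => ?_, fun x y => ?_, by linarith⟩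
  · have := h.nonneg x y; linarith
  · have := h1 x y; linarith
  · have := h2 x y; linarith

theorem jn_pmet {Y : Type} [Nonempty Y] {dY : Y → Y → ℝ} (h : PMet dY) {m p : ℝ}
    (h1 : ∀ x y, dY x y ≤ 2 * m) (h2 : ∀ x y, dY x y ≤ 2 * p) : PMet (jn m p dY) :=
  (jn_jc h h1 h2).pmet

/-- extension without increase of the diameter -/
theorem Lv.extend {l : List ℝ} : ∀ {A B : Type} [Finite B] [Nonempty A] {dB : B → B → ℝ},
    PMet dB → ∀ (ι : A → B), (∀ R, (∀ a b, dB (ι a) (ι b) ≤ R) → ∀ x y, dB x y ≤ R) →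
    2 * l.length + Nat.card B ≤ k + 1 → ∀ {ρ : A → A → ℝ},
    Lv k D l (fun a b => dB (ι a) (ι b)) ρ →
    ∃ r, Lv k D l dB r ∧ ∀ a b, r (ι a) (ι b) = ρ a b := by
  induction l with
  | nil =>
    intro A B _ _ dB hB ι hd hc ρ h
    obtain ⟨r, h1, h2⟩ := KKext hB ι (by simpa using hc) h
    exact ⟨r, h1, h2⟩
  | cons a l ih =>
    rintro A B _ _ dB hB ι hd hc ρ ⟨m, p, h1, h2, r', h3, h4, h5⟩
    have h1' := hd _ h1
    have h2' := hd _ h2
    have hne : Nonempty B := ⟨ι (Classical.arbitrary A)⟩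
    have hJ := jn_jc hB h1' h2'
    rw [← jn_comap] at h3
    obtain ⟨r, hr1, hr2⟩ := ih (A := Bool ⊕ A) (B := Bool ⊕ B) (dB := jn m p dB) hJ.pmet
      (Sum.map id ι) (fun R hR x y => by
        refine (hJ.le x y).trans ?_
        have := hR (.inl false) (.inl true)
        simpa [jn, jf] using this) (by
        rw [Nat.card_sum, Nat.card_eq_fintype_card, Fintype.card_bool]
        simp only [List.length_cons] at hc
        omega) h3
    refine ⟨fun x y => r (.inr x) (.inr y), ⟨m, p, h1', h2', r, hr1, ?_, fun x y => rfl⟩, ?_⟩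
    · rw [← h4]; exact hr2 (.inl false) (.inl true)
    · intro a b
      rw [← h5]; exact hr2 (.inr a) (.inr b)

/-- extension of a join -/
theorem Lv.extendJ {l : List ℝ} {A B : Type} [Finite B] {m p : ℝ} {f : B → ℝ} {dB : B → B → ℝ}
    (hJ : JC m p f dB) (ι : A → B) (hc : 2 * l.length + 2 + Nat.card B ≤ k + 1)
    {ρ : Bool ⊕ A → Bool ⊕ A → ℝ}
    (h : Lv k D l (jf m p (fun a => f (ι a)) (fun a b => dB (ι a) (ι b))) ρ) :
    ∃ r, Lv k D l (jf m p f dB) r ∧
      ∀ a b, r (Sum.map id ι a) (Sum.map id ι b) = ρ a b := by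
  rw [← jf_comap] at h
  exact Lv.extend hJ.pmet (Sum.map id ι) (fun R hR x y => by
        refine (hJ.le x y).trans ?_
        have := hR (.inl false) (.inl true)
        simpa [jf] using this) (by
        rw [Nat.card_sum, Nat.card_eq_fintype_card, Fintype.card_bool]
        omega) h

theorem Lv.cons_le {l : List ℝ} {a : ℝ} {Y : Type} {dY r : Y → Y → ℝ}
    (h : Lv k D (a :: l) dY r) : Lv k D l dY r := by
  obtain ⟨m, p, h1, h2, r', h3, h4, h5⟩ := h
  have h6 := h3.restrict (Sum.inr : Y → Bool ⊕ Y)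
  have h7 : (fun x y => r' (.inr x) (.inr y)) = r := by
    funext x y; exact h5 x y
  rw [h7] at h6
  exact h6

/-- `a` bounds all slopes at level `l` -/
def Bd (k : ℕ) (D : ℝ) (l : List ℝ) (a : ℝ) : Prop :=
  ∀ {Y : Type} {dY r : Y → Y → ℝ}, PMet dY → Lv k D l dY r → ∀ x y, r x y ≤ a * dY x y

/-- every element of the list is the largest slope over the rest of the list -/
def Ok (k : ℕ) (D : ℝ) : List ℝ → Prop
  | [] => True
  | a :: l => Ok k D l ∧ Bd k D l a ∧ ∃ r, Lv k D l (pr 1) r ∧ r false true = a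

/-- the slope bound for exact pieces -/
theorem Lv.shrink {l : List ℝ} {a : ℝ} (ha : Bd k D l a) {Y : Type} [Finite Y] [Nonempty Y]
    {dY r : Y → Y → ℝ} (hY : PMet dY) {T : ℝ} (hT : ∀ x y, dY x y ≤ 2 * T)
    (hT' : ∃ x y, dY x y = 2 * T) (hc : 2 * l.length + 4 + Nat.card Y ≤ k + 1)
    (h : Lv k D (a :: l) dY r) :
    ∃ r' : Bool ⊕ Y → Bool ⊕ Y → ℝ, Lv k D l (jn T T dY) r' ∧
        r' (.inl false) (.inl true) = a * (T + T) ∧ ∀ x y, r' (.inr x) (.inr y) = r x y := by
  obtain ⟨m, p, h1, h2, r₁, h3, h4, h5⟩ := h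
  obtain ⟨x₀, y₀, hxy⟩ := hT'
  have hT0 : 0 ≤ T := by have := hY.nonneg x₀ y₀; linarith
  have hm : T ≤ m := by have := h1 x₀ y₀; linarith
  have hp : T ≤ p := by have := h2 x₀ y₀; linarith
  have hJ1 := jn_jc hY hT hT
  let f : Bool ⊕ Y → ℝ := fun z => match z with
    | .inl false => -T
    | .inl true => T
    | .inr _ => 0
  have hJ : JC m p f (jn T T dY) := by
    refine ⟨hJ1.pmet, ?_, ?_, ?_, by linarith⟩
    · rintro (s | x) (t | y)
      · cases s <;> cases t <;> simp [jn, jf, f] <;> linarith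
      · cases s <;> simp [jn, jf, f] <;> linarith
      · cases t <;> simp [jn, jf, f] <;> linarith
      · have := hY.nonneg x y
        simp [jn, jf, f] ; linarith
    · rintro (s | x) (t | y)
      · cases s <;> cases t <;> simp [jn, jf, f] <;> linarith
      · cases s <;> simp [jn, jf, f] <;> linarith
      · cases t <;> simp [jn, jf, f] <;> linarith
      · have := h1 x y
        simp [jn, jf, f] ; linarith
    · rintro (s | x) (t | y)
      · cases s <;> cases t <;> simp [jn, jf, f] <;> linarith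
      · cases s <;> simp [jn, jf, f] <;> linarith
      · cases t <;> simp [jn, jf, f] <;> linarith
      · have := h2 x y
        simp [jn, jf, f] ; linarith
  obtain ⟨r₂, h6, h7⟩ := Lv.extendJ (l := l) (A := Y) (B := Bool ⊕ Y) hJ Sum.inr (by
        rw [Nat.card_sum, Nat.card_eq_fintype_card, Fintype.card_bool]
        omega) h3
  have h8 := ha hJ.pmet h6
  have h9 := (Lv.adm h6).l1
  refine ⟨fun x y => r₂ (.inr x) (.inr y), ?_, ?_, ?_⟩
  · exact Lv.restrict h6 Sum.inr
  · apply le_antisymm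
    · have := h8 (.inr (.inl false)) (.inr (.inl true))
      simpa [jf, jn] using this
    · have e1 := h8 (.inl false) (.inr (.inl false))
      have e2 := h8 (.inr (.inl true)) (.inl true)
      have e3 := h9.tri (.inl false) (.inr (.inl false)) (.inl true)
      have e4 := h9.tri (.inr (.inl false)) (.inr (.inl true)) (.inl true)
      have e5 := h7 (.inl false) (.inl true)
      simp only [Sum.map_inl, id] at e5
      rw [h4] at e5
      simp [jf, f] at e1 e2
      show a * (T + T) ≤ r₂ (.inr (.inl false)) (.inr (.inl true))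
      nlinarith
  · intro x y
    rw [← h5]
    exact h7 (.inr x) (.inr y)

end Vale.Agent.P235.R2.H483
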