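import Vale.Agent.P235.H263.Elim
import Vale.Agent.P235.H134.Grid.Defs

set_option linter.all false

/-! Graphs of treewidth at most `k` have no complete minor on `k + 2` vertices. -/

namespace Vale.Agent.P235.R2.H483

open Vale.Agent.P235.H134

section

variable {V : Type} {rk : V → ℕ} {A : V → Finset V}

open scoped Classical in
/-- the highest lower neighbour -/
noncomputable def pa (rk : V → ℕ) (A : V → Finset V) (x : V) : V :=
  if h : (A x).Nonempty then ((A x).exists_max_image rk h).choose else x

theorem pa_mem {x : V} (h : (A x).Nonempty) : pa rk A x ∈ A x := by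
  unfold pa; rw [dif_pos h]
  exact ((A x).exists_max_image rk h).choose_spec.1

theorem le_pa {x y : V} (h : y ∈ A x) : rk y ≤ rk (pa rk A x) := by
  have hn : (A x).Nonempty := ⟨y, h⟩
  unfold pa; rw [dif_pos hn]
  exact ((A x).exists_max_image rk hn).choose_spec.2 y h

open scoped Classical in
/-- one step down, staying at rank at least `t` -/
noncomputable def stp (rk : V → ℕ) (A : V → Finset V) (t : ℕ) (x : V) : V :=
  if (A x).Nonempty ∧ t ≤ rk (pa rk A x) then pa rk A x else x

theorem stp_lt (hlt : ∀ x, ∀ y ∈ A x, rk y < rk x) {t : ℕ} {x : V} (h : stp rk A t x ≠ x) :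
    rk (stp rk A t x) < rk x := by
  unfold stp at h ⊢
  split_ifs with h1
  · exact hlt _ _ (pa_mem h1.1)
  · rw [if_neg h1] at h; exact absurd rfl h

/-- the last vertex -/
noncomputable def top (rk : V → ℕ) (A : V → Finset V) (t : ℕ) (x : V) : V :=
  (stp rk A t)^[rk x] x

theorem iter_fix (hlt : ∀ x, ∀ y ∈ A x, rk y < rk x) {t : ℕ} (n : ℕ) : ∀ {x : V}, rk x ≤ n →
    stp rk A t ((stp rk A t)^[n] x) = (stp rk A t)^[n] x := by
  induction n with
  | zero =>
    intro x hx
    by_contra h
    have := stp_lt hlt h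
    simp only [Function.iterate_zero, id] at this
    omega
  | succ n ih =>
    intro x hx
    rw [Function.iterate_succ_apply]
    by_cases h : stp rk A t x = x
    · rw [h]
      have hfix : ∀ m, (stp rk A t)^[m] x = x := fun m => Function.iterate_fixed h m
      rw [hfix, h]
    · exact ih (by have := stp_lt hlt h; omega)

theorem iter_eq (hlt : ∀ x, ∀ y ∈ A x, rk y < rk x) {t n : ℕ} {x : V} (h : rk x ≤ n) :
    (stp rk A t)^[n] x = top rk A t x := by
  obtain ⟨m, rfl⟩ := Nat.exists_eq_add_of_le h
  rw [add_comm, Function.iterate_add_apply]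
  exact Function.iterate_fixed (iter_fix hlt _ le_rfl) m

theorem top_stp (hlt : ∀ x, ∀ y ∈ A x, rk y < rk x) {t : ℕ} (x : V) :
    top rk A t (stp rk A t x) = top rk A t x := by
  by_cases h : stp rk A t x = x
  · rw [h]
  · have h1 := stp_lt hlt h
    rw [← iter_eq hlt (n := rk x) (x := stp rk A t x) h1.le, ← Function.iterate_succ_apply]
    exact iter_eq hlt (Nat.le_succ _)

theorem top_self (hlt : ∀ x, ∀ y ∈ A x, rk y < rk x) (x : V) : top rk A (rk x) x = x := by
  have h : stp rk A (rk x) x = x := by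
    unfold stp
    rw [if_neg]
    rintro ⟨h1, h2⟩
    have := hlt _ _ (pa_mem (rk := rk) h1)
    omega
  exact Function.iterate_fixed h _

theorem top_mem (hlt : ∀ x, ∀ y ∈ A x, rk y < rk x) (hinj : Function.Injective rk)
    (hcl : ∀ x, ∀ a ∈ A x, ∀ b ∈ A x, rk a < rk b → a ∈ A b) {t : ℕ} (n : ℕ) :
    ∀ {x y : V}, rk x ≤ n → y ∈ A x → t ≤ rk y → top rk A t x = top rk A t y := by
  induction n with
  | zero => intro x y hx hy _; have := hlt x y hy; omega
  | succ n ih =>
    intro x y hx hy ht
    have hp : (A x).Nonempty := ⟨y, hy⟩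
    have hle : rk y ≤ rk (pa rk A x) := le_pa hy
    have hs : stp rk A t x = pa rk A x := by
      unfold stp; rw [if_pos ⟨hp, ht.trans hle⟩]
    rw [← top_stp hlt x, hs]
    rcases hle.lt_or_eq with h | h
    · exact ih (by have := hlt _ _ (pa_mem (rk := rk) hp); omega)
        (hcl x y hy _ (pa_mem hp) h) ht
    · rw [hinj h]

theorem top_low (hlt : ∀ x, ∀ y ∈ A x, rk y < rk x)
    (hcl : ∀ x, ∀ a ∈ A x, ∀ b ∈ A x, rk a < rk b → a ∈ A b) {t : ℕ} (n : ℕ) :
    ∀ {x w : V}, rk x ≤ n → w ∈ A x → rk w < t → w ∈ A (top rk A t x) := by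
  induction n with
  | zero => intro x y hx hy _; have := hlt x y hy; omega
  | succ n ih =>
    intro x w hx hw ht
    by_cases h : stp rk A t x = x
    · have : top rk A t x = x := Function.iterate_fixed h _
      rw [this]; exact hw
    · have h1 := stp_lt hlt h
      rw [← top_stp hlt x]
      refine ih (by omega) ?_ ht
      unfold stp at h ⊢
      split_ifs with h2
      · exact hcl x w hw _ (pa_mem h2.1) (by omega)
      · rw [if_neg h2] at h; exact absurd rfl h

end

/-- graphs of treewidth at most `k` have no complete minor on `k + 2` vertices -/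
theorem no_minor {V : Type} [Finite V] {G : SimpleGraph V} {k r : ℕ} (h : TreewidthLE G k)
    (hr : k + 2 ≤ r) : ¬ IsMinor (⊤ : SimpleGraph (Fin r)) G := by
  classical
  rintro ⟨μ, hc, hd, ha⟩
  have := Fintype.ofFinite V
  have hne : ∀ a, (μ a).Nonempty := fun a => by
    obtain ⟨⟨x, hx⟩⟩ := (hc a).nonempty
    exact ⟨x, hx⟩
  have h0 : Fin r := ⟨0, by omega⟩
  have hV : Nonempty V := (hne h0).to_type
  obtain ⟨rk, A, -, hinj, hlt, hcard, hcl, hadj⟩ := H263.exists_rank h
  have hmin : ∀ a, ∃ m ∈ μ a, ∀ x ∈ μ a, rk m ≤ rk x := fun a =>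
    Set.exists_min_image (μ a) rk (Set.toFinite _) (hne a)
  choose m hm1 hm2 using hmin
  obtain ⟨j, -, hj⟩ := Finset.exists_max_image (Finset.univ : Finset (Fin r)) (fun a => rk (m a))
    ⟨h0, Finset.mem_univ _⟩
  set t := rk (m j) with ht
  -- adjacency keeps the top
  have hA : ∀ x y, G.Adj x y → t ≤ rk x → t ≤ rk y → top rk A t x = top rk A t y := by
    intro x y hxy hx hy
    have hne' : rk x ≠ rk y := fun e => hxy.ne (hinj e)
    rcases lt_or_gt_of_ne hne' with h1 | h1
    · exact (top_mem hlt hinj hcl _ le_rfl (hadj x y hxy h1) hx).symm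
    · exact top_mem hlt hinj hcl _ le_rfl (hadj y x hxy.symm h1) hy
  have hlow : ∀ x y, G.Adj x y → t ≤ rk x → rk y < t → y ∈ A (top rk A t x) := by
    intro x y hxy hx hy
    exact top_low hlt hcl _ le_rfl (hadj y x hxy.symm (by omega)) hy
  have hj2 : ∀ x : (μ j), top rk A t x.1 = m j := by
    have key : ∀ (x y : (μ j)), (G.induce (μ j)).Walk x y → top rk A t x.1 = top rk A t y.1 := by
      intro x y p
      induction p with
      | nil => rfl
      | cons hxy p ih =>
        rename_i u v w
        rw [← ih]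
        exact hA _ _ hxy (hm2 j _ u.2) (hm2 j _ v.2)
    intro x
    obtain ⟨p⟩ := (hc j).preconnected x ⟨m j, hm1 j⟩
    rw [key x ⟨m j, hm1 j⟩ p]
    exact top_self hlt (m j)
  have hfind : ∀ i, i ≠ j → ∃ w ∈ μ i, w ∈ A (m j) := by
    intro i hij
    have hmij : rk (m i) < t := by
      refine lt_of_le_of_ne (hj i (Finset.mem_univ _)) fun e => ?_
      have := hinj e
      exact Set.disjoint_left.1 (hd i j hij) (hm1 i) (this ▸ hm1 j)
    obtain ⟨a, ha1, b, hb1, hab⟩ := ha j i (by rw [SimpleGraph.top_adj]; exact hij.symm)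
    have hta : t ≤ rk a := hm2 j a ha1
    have htop : top rk A t a = m j := hj2 ⟨a, ha1⟩
    by_cases hb : rk b < t
    · exact ⟨b, hb1, by rw [← htop]; exact hlow a b hab hta hb⟩
    · push Not at hb
      have key : ∀ (x y : (μ i)), (G.induce (μ i)).Walk x y → t ≤ rk x.1 →
          top rk A t x.1 = m j → rk y.1 < t → ∃ w ∈ μ i, w ∈ A (m j) := by
        intro x y p
        induction p with
        | nil => intro h1 _ h2; omega
        | cons hxy p ih =>
          rename_i u v w
          intro h1 h2 h3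
          by_cases h4 : rk v.1 < t
          · exact ⟨v.1, v.2, by rw [← h2]; exact hlow _ _ hxy h1 h4⟩
          · push Not at h4
            exact ih h4 ((hA _ _ hxy h1 h4).symm.trans h2) h3
      obtain ⟨p⟩ := (hc i).preconnected ⟨b, hb1⟩ ⟨m i, hm1 i⟩
      exact key _ _ p hb ((hA a b hab hta hb).symm.trans htop) hmij
  choose! w hw1 hw2 using hfind
  have hcard2 : (Finset.univ.erase j).card ≤ (A (m j)).card := by
    refine Finset.card_le_card_of_injOn w (fun i hi => ?_) ?_
    · exact hw2 i (by simpa using hi)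
    · intro i hi i' hi' e
      have h1 : i ≠ j := by simpa using hi
      have h2 : i' ≠ j := by simpa using hi'
      by_contra hne'
      exact Set.disjoint_left.1 (hd i i' hne') (hw1 i h1) (e ▸ hw1 i' h2)
  rw [Finset.card_erase_of_mem (Finset.mem_univ j), Finset.card_univ, Fintype.card_fin] at hcard2
  have := hcard (m j)
  omega

end Vale.Agent.P235.R2.H483
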