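import Vale.Agent.P235.H150.Sat

set_option linter.all false

/-! Pseudometrics, the extension property for pseudometrics, and joins with a pair of far points. -/

namespace Vale.Agent.P235.R2.H483

open Set Vale.Agent.P235.TL

/-- pseudometric -/
structure PMet {V : Type} (d : V → V → ℝ) : Prop where
  self : ∀ x, d x x = 0
  symm : ∀ x y, d x y = d y x
  tri : ∀ x y z, d x z ≤ d x y + d y z

theorem PMet.nonneg {V : Type} {d : V → V → ℝ} (h : PMet d) (x y : V) : 0 ≤ d x y := by
  have h1 := h.tri x y x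
  rw [h.self, h.symm y x] at h1
  linarith

theorem PMet.comap {V W : Type} {d : V → V → ℝ} (h : PMet d) (f : W → V) :
    PMet (fun x y => d (f x) (f y)) :=
  ⟨fun x => h.self _, fun x y => h.symm _ _, fun x y z => h.tri _ _ _⟩

theorem PMet.of_dist {V : Type} {M : Type} [PseudoMetricSpace M] (g : V → M) :
    PMet (fun x y => dist (g x) (g y)) :=
  ⟨fun x => dist_self _, fun x y => dist_comm _ _, fun x y z => dist_triangle _ _ _⟩

variable {k : ℕ} {D : ℝ}

/-- extension for pseudometrics, along an arbitrary map -/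
theorem KKext {A B : Type} [Finite B] [Nonempty A] {dB : B → B → ℝ} (hB : PMet dB) (ι : A → B)
    (hcard : Nat.card B ≤ k + 1) {ρ : A → A → ℝ}
    (hρ : ρ ∈ KK k D (fun a b => dB (ι a) (ι b))) :
    ∃ r ∈ KK k D dB, ∀ a b, r (ι a) (ι b) = ρ a b := by
  classical
  -- the quotient
  let S : Setoid B := ⟨fun x y => dB x y = 0, fun x => hB.self x, fun {x y} h => by
    rw [hB.symm]; exact h, fun {x y z} h1 h2 => by
      have h3 := hB.tri x y z
      have h4 := hB.nonneg x z
      have h1' : dB x y = 0 := h1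
      have h2' : dB y z = 0 := h2
      show dB x z = 0
      linarith⟩
  have hS : ∀ x y, S.r x y ↔ dB x y = 0 := fun x y => Iff.rfl
  let π : B → Quotient S := Quotient.mk S
  have hπ : ∀ x y, π x = π y ↔ dB x y = 0 := fun x y => Quotient.eq (r := S)
  have hcongr : ∀ x y x' y' : B, dB x x' = 0 → dB y y' = 0 → dB x y = dB x' y' := by
    intro x y x' y' h1 h2
    have a1 := hB.tri x x' y
    have a2 := hB.tri x' y' y
    have a3 := hB.tri x' x y'
    have a4 := hB.tri x y y'
    rw [hB.symm y' y] at a2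
    rw [hB.symm x' x] at a3
    linarith
  obtain ⟨sB, hsB⟩ : ∃ sB : Quotient S → B, ∀ q, π (sB q) = q :=
    ⟨Quotient.out, fun q => Quotient.out_eq q⟩
  let dQ : Quotient S → Quotient S → ℝ := fun p q => dB (sB p) (sB q)
  have hdQ : ∀ x y, dQ (π x) (π y) = dB x y := by
    intro x y
    refine hcongr _ _ _ _ ?_ ?_
    · exact (hπ _ _).1 (hsB _)
    · exact (hπ _ _).1 (hsB _)
  have hQ : Met dQ := by
    refine ⟨fun x => hB.self _, fun x y hxy => ?_, fun x y => hB.symm _ _,
      fun x y z => hB.tri _ _ _⟩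
    rcases (hB.nonneg (sB x) (sB y)).lt_or_eq with h | h
    · exact h
    · exfalso
      apply hxy
      have := (hπ (sB x) (sB y)).2 h.symm
      rwa [hsB, hsB] at this
  have hQfin : Finite (Quotient S) := Finite.of_surjective π (Quotient.mk_surjective)
  have hQcard : Nat.card (Quotient S) ≤ k + 1 :=
    (Nat.card_le_card_of_surjective π (Quotient.mk_surjective)).trans hcard
  -- the range
  let A' : Type := {q : Quotient S // ∃ a, π (ι a) = q}
  have hA' : Nonempty A' := ⟨⟨π (ι (Classical.arbitrary A)), _, rfl⟩⟩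
  let s : A' → A := fun q => Classical.choose q.2
  have hs : ∀ q : A', π (ι (s q)) = q.1 := fun q => Classical.choose_spec q.2
  have e1 : (fun p q : A' => dB (ι (s p)) (ι (s q))) = fun p q : A' => dQ p.1 q.1 := by
    funext p q
    rw [← hs p, ← hs q, hdQ]
  have hρ' : (fun x y => ρ (s x) (s y)) ∈ KK k D (fun p q : A' => dB (ι (s p)) (ι (s q))) :=
    KK.restrict hρ s
  rw [e1] at hρ'
  obtain ⟨r', hr', hr''⟩ := KK.extend (k := k) (D := D) hQ (ι := fun q : A' => q.1)
    Subtype.val_injective hQcard hρ'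
  have e2 : (fun x y => dQ (π x) (π y)) = dB := by
    funext x y; exact hdQ x y
  have h3 : (fun x y => r' (π x) (π y)) ∈ KK k D (fun x y => dQ (π x) (π y)) :=
    KK.restrict hr' π
  rw [e2] at h3
  refine ⟨_, h3, fun a b => ?_⟩
  have hadm := KK.adm hρ
  have key : ∀ a : A, ρ (s ⟨π (ι a), a, rfl⟩) a = 0 := by
    intro a
    have h4 := hadm.up (s ⟨π (ι a), a, rfl⟩) a
    have h5 := hadm.l1.nonneg (s ⟨π (ι a), a, rfl⟩) a
    have h6 : dB (ι (s ⟨π (ι a), a, rfl⟩)) (ι a) = 0 := (hπ _ _).1 (hs ⟨π (ι a), a, rfl⟩)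
    rw [h6] at h4
    linarith
  have h7 := hr'' ⟨π (ι a), a, rfl⟩ ⟨π (ι b), b, rfl⟩
  show r' (π (ι a)) (π (ι b)) = ρ a b
  rw [h7]
  have ka := key a
  have kb := key b
  generalize (s ⟨π (ι a), a, rfl⟩) = sa at ka ⊢
  generalize (s ⟨π (ι b), b, rfl⟩) = sb at kb ⊢
  have t1 := hadm.l1.tri sa a sb
  have t2 := hadm.l1.tri a b sb
  have t3 := hadm.l1.tri a sa b
  have t4 := hadm.l1.tri sa sb b
  have u1 := hadm.l1.symm b sb
  have u2 := hadm.l1.symm a sa
  linarith

/-- join with two far points: the distance from `y` to the first is `m + f y`, to the second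
`p - f y` -/
def jf {Y : Type} (m p : ℝ) (f : Y → ℝ) (dY : Y → Y → ℝ) : Bool ⊕ Y → Bool ⊕ Y → ℝ
  | .inl s, .inl t => if s = t then 0 else m + p
  | .inl s, .inr y => if s then p - f y else m + f y
  | .inr y, .inl s => if s then p - f y else m + f y
  | .inr x, .inr y => dY x y

structure JC {Y : Type} (m p : ℝ) (f : Y → ℝ) (dY : Y → Y → ℝ) : Prop where
  met : PMet dY
  lip : ∀ x y, f x - f y ≤ dY x y
  lo : ∀ x y, dY x y ≤ 2 * m + f x + f y
  hi : ∀ x y, dY x y ≤ 2 * p - f x - f y
  nn : 0 ≤ m + p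

theorem JC.pmet {Y : Type} {m p : ℝ} {f : Y → ℝ} {dY : Y → Y → ℝ} (h : JC m p f dY) :
    PMet (jf m p f dY) := by
  have hlo : ∀ x, 0 ≤ m + f x := fun x => by
    have := h.lo x x; rw [h.met.self] at this; linarith
  have hhi : ∀ x, 0 ≤ p - f x := fun x => by
    have := h.hi x x; rw [h.met.self] at this; linarith
  have hnn := h.nn
  refine ⟨?_, ?_, ?_⟩
  · rintro (s | x)
    · simp [jf]
    · exact h.met.self x
  · rintro (s | x) (t | y)
    · simp only [jf, eq_comm]
    · rfl
    · rfl
    · exact h.met.symm x y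
  · rintro (s | x) (t | y) (u | z)
    · cases s <;> cases t <;> cases u <;> simp [jf] <;> linarith
    · have := hlo z
      have := hhi z
      cases s <;> cases t <;> simp [jf] <;> linarith
    · have := hlo y
      have := hhi y
      cases s <;> cases u <;> simp [jf] <;> linarith
    · have h1 := h.lip z y
      have h2 := h.lip y z
      have h3 := h.met.symm y z
      cases s <;> simp [jf] <;> linarith
    · have := hlo x
      have := hhi x
      cases u <;> cases t <;> simp [jf] <;> linarith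
    · have h1 := h.lo x z
      have h2 := h.hi x z
      cases t <;> simp [jf] <;> linarith
    · have h1 := h.lip x y
      have h2 := h.lip y x
      have h3 := h.met.symm y x
      cases u <;> simp [jf] <;> linarith
    · exact h.met.tri x y z

theorem JC.le {Y : Type} {m p : ℝ} {f : Y → ℝ} {dY : Y → Y → ℝ} (h : JC m p f dY) :
    ∀ x y, jf m p f dY x y ≤ m + p := by
  have hlo : ∀ x, 0 ≤ m + f x := fun x => by
    have := h.lo x x; rw [h.met.self] at this; linarith
  have hhi : ∀ x, 0 ≤ p - f x := fun x => by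
    have := h.hi x x; rw [h.met.self] at this; linarith
  have hnn := h.nn
  rintro (s | x) (t | y)
  · simp only [jf]; split_ifs <;> linarith
  · have := hlo y
    have := hhi y
    simp only [jf]; split_ifs <;> linarith
  · have := hlo x
    have := hhi x
    simp only [jf]; split_ifs <;> linarith
  · have h1 := h.lo x y
    have h2 := h.hi x y
    simp only [jf]; linarith

theorem JC.comap {Y Z : Type} {m p : ℝ} {f : Y → ℝ} {dY : Y → Y → ℝ} (h : JC m p f dY)
    (ι : Z → Y) : JC m p (fun z => f (ι z)) (fun x y => dY (ι x) (ι y)) :=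
  ⟨h.met.comap ι, fun x y => h.lip _ _, fun x y => h.lo _ _, fun x y => h.hi _ _, h.nn⟩

theorem jf_comap {Y Z : Type} (m p : ℝ) (f : Y → ℝ) (dY : Y → Y → ℝ) (ι : Z → Y) :
    (fun x y => jf m p f dY (Sum.map id ι x) (Sum.map id ι y)) =
      jf m p (fun z => f (ι z)) (fun x y => dY (ι x) (ι y)) := by
  funext x y
  rcases x with s | x <;> rcases y with t | y <;> rfl

theorem jf_scale {Y : Type} (c m p : ℝ) (f : Y → ℝ) (dY : Y → Y → ℝ) :
    (fun x y => c * jf m p f dY x y) =
      jf (c * m) (c * p) (fun z => c * f z) (fun x y => c * dY x y) := by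
  funext x y
  rcases x with s | x <;> rcases y with t | y
  · simp only [jf]; split_ifs <;> ring
  · simp only [jf]; split_ifs <;> ring
  · simp only [jf]; split_ifs <;> ring
  · rfl

/-- join at constant distances -/
def jn {Y : Type} (m p : ℝ) (dY : Y → Y → ℝ) : Bool ⊕ Y → Bool ⊕ Y → ℝ :=
  jf m p (fun _ => 0) dY

end Vale.Agent.P235.R2.H483
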